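import Vale.Agent.P161.Defs
import Vale.Agent.P161.Main

/-!
# P161: the free Ising state on the regular tree is a factor of IID below the reconstruction
threshold, for every degree `d ≥ 3`.
-/

namespace Vale.Agent.Results.P161.BelowThreshold

open Vale.Agent.P161 MeasureTheory

/-- Let `G` be an infinite `d`-regular tree, `d ≥ 3`, and `β ≥ 0` with
`tanh β < (d-1)^{-1/2}`.  The free zero-field Ising measure on `G` exists, is unique, and is a
factor of IID. -/
theorem result (d : ℕ) (hd : 3 ≤ d) {V : Type*} (G : SimpleGraph V) [G.LocallyFinite]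
    (hT : G.IsTree) (hreg : G.IsRegularOfDegree d) (β : ℝ) (hβ : 0 ≤ β)
    (hθ : Real.tanh β < 1 / √((d : ℝ) - 1)) :
    (∃! μ : Measure (V → Bool), IsFreeIsing G β μ) ∧
      ∀ μ : Measure (V → Bool), IsFreeIsing G β μ → IsFactorOfIID G μ :=
  ⟨B4 G hT β hβ, fun μ hμ => main d hd β hβ hθ G hT hreg μ hμ⟩

end Vale.Agent.Results.P161.BelowThreshold
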